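import Mathlib
import Crest.Prelude.Def_TreePotentials

/-!
# Blocks for the S0166 witness (helper27, package G1 of row 125)

`Amb` is the ambient space of the global tree-potential model (bounded real functions on the
global tests).  `blk n` is the closed linear span of the coordinate vectors of the vertices of
depth `≤ n`; it is a closed subspace of `modelSpace .global`, and it is isomorphic to the Hilbert
space `ℓ²({s // s.length ≤ n})`.
-/

set_option autoImplicit false

open Crest.AnalysisR Crest.AnalysisR.TreePotential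
open Filter Topology

namespace Crest.Agent.Helper27

/-- ambient space of the global model: bounded real functions on the global tests -/
abbrev Amb : Type := lp (fun _ : PotentialTest PotentialModel.global => ℝ) ⊤

/-- the coordinate vector of a vertex in the global model -/
noncomputable abbrev cv (s : List ℕ) : Amb := coordVector PotentialModel.global s

@[simp] theorem cv_apply (s : List ℕ) (f : PotentialTest PotentialModel.global) :
    (cv s : PotentialTest PotentialModel.global → ℝ) f = f.1 s := rfl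

/-- the block of depth `n`: closed span of the coordinate vectors of depth at most `n` -/
noncomputable def blk (n : ℕ) : Submodule ℝ Amb :=
  (Submodule.span ℝ (cv '' {s : List ℕ | s.length ≤ n})).topologicalClosure

/-- the block as a type -/
abbrev Blk (n : ℕ) : Type := ↥(blk n)

theorem blk_isClosed (n : ℕ) : IsClosed (blk n : Set Amb) :=
  Submodule.isClosed_topologicalClosure _

noncomputable instance (n : ℕ) : CompleteSpace (Blk n) :=
  (blk_isClosed n).completeSpace_coe

theorem cv_mem_blk {n : ℕ} {s : List ℕ} (hs : s.length ≤ n) : cv s ∈ blk n :=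
  Submodule.le_topologicalClosure _ (Submodule.subset_span ⟨s, hs, rfl⟩)

theorem blk_le_modelSpace (n : ℕ) : blk n ≤ modelSpace PotentialModel.global := by
  unfold blk modelSpace
  apply Submodule.topologicalClosure_mono
  apply Submodule.span_mono
  rintro _ ⟨s, _, rfl⟩
  exact ⟨s, rfl⟩

theorem blk_mono {m n : ℕ} (h : m ≤ n) : blk m ≤ blk n := by
  unfold blk
  apply Submodule.topologicalClosure_mono
  apply Submodule.span_mono
  rintro _ ⟨s, hs, rfl⟩
  exact ⟨s, le_trans hs h, rfl⟩

/-- build a global test from a function and a proof -/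
def mkTest (g : List ℕ → ℝ) (h : IsTest PotentialModel.global g) :
    PotentialTest PotentialModel.global := ⟨g, h⟩

@[simp] theorem mkTest_val (g : List ℕ → ℝ) (h : IsTest PotentialModel.global g) :
    (mkTest g h).1 = g := rfl

/-! ### evaluation at tests -/

theorem abs_apply_le_norm (x : Amb) (f : PotentialTest PotentialModel.global) :
    |(x : PotentialTest PotentialModel.global → ℝ) f| ≤ ‖x‖ := by
  have h := lp.norm_apply_le_norm (p := ⊤) (by simp) x f
  simpa [Real.norm_eq_abs] using h

theorem apply_le_norm (x : Amb) (f : PotentialTest PotentialModel.global) :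
    (x : PotentialTest PotentialModel.global → ℝ) f ≤ ‖x‖ :=
  le_trans (le_abs_self _) (abs_apply_le_norm x f)

theorem norm_le_of_forall_abs_le {x : Amb} {C : ℝ} (hC : 0 ≤ C)
    (h : ∀ f : PotentialTest PotentialModel.global,
      |(x : PotentialTest PotentialModel.global → ℝ) f| ≤ C) : ‖x‖ ≤ C := by
  apply lp.norm_le_of_forall_le hC
  intro f
  simpa [Real.norm_eq_abs] using h f

/-- evaluation at a test, as a continuous linear functional on the ambient space -/
noncomputable def evalCLM (f : PotentialTest PotentialModel.global) : Amb →L[ℝ] ℝ :=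
  LinearMap.mkContinuous
    { toFun := fun x => (x : PotentialTest PotentialModel.global → ℝ) f
      map_add' := fun x y => by simp
      map_smul' := fun c x => by simp }
    1 (fun x => by
      show ‖(x : PotentialTest PotentialModel.global → ℝ) f‖ ≤ 1 * ‖x‖
      rw [one_mul, Real.norm_eq_abs]
      exact abs_apply_le_norm x f)

@[simp] theorem evalCLM_apply (f : PotentialTest PotentialModel.global) (x : Amb) :
    evalCLM f x = (x : PotentialTest PotentialModel.global → ℝ) f := rfl

/-! ### the Hilbert space side -/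

/-- the Hilbert space `ℓ²` on the vertices of depth at most `n` -/
abbrev Hn (n : ℕ) : Type := lp (fun _ : {s : List ℕ // s.length ≤ n} => ℝ) 2

theorem rpow_toReal_two (r : ℝ) : ‖r‖ ^ (2 : ENNReal).toReal = r ^ 2 := by
  rw [ENNReal.toReal_ofNat, Real.rpow_two, Real.norm_eq_abs, sq_abs]

theorem toReal_two_pos : 0 < (2 : ENNReal).toReal := by
  rw [ENNReal.toReal_ofNat]; norm_num

theorem test_sum_sq_le (f : PotentialTest PotentialModel.global) (A : Finset (List ℕ)) :
    ∑ u ∈ A, f.1 u ^ 2 ≤ 1 := f.2.2 A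

theorem restr_sum_le (n : ℕ) (f : PotentialTest PotentialModel.global)
    (A : Finset {s : List ℕ // s.length ≤ n}) :
    ∑ i ∈ A, ‖f.1 i.1‖ ^ (2 : ENNReal).toReal ≤ 1 := by
  simp only [rpow_toReal_two]
  have h := test_sum_sq_le f (A.map (Function.Embedding.subtype _))
  rw [Finset.sum_map] at h
  simpa using h

/-- restriction of a global test to the vertices of depth at most `n`, as an element of `ℓ²` -/
noncomputable def restr (n : ℕ) (f : PotentialTest PotentialModel.global) : Hn n :=
  ⟨fun s => f.1 s.1, memℓp_gen' (C := 1) (restr_sum_le n f)⟩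

@[simp] theorem restr_apply (n : ℕ) (f : PotentialTest PotentialModel.global)
    (s : {s : List ℕ // s.length ≤ n}) : (restr n f : {s : List ℕ // s.length ≤ n} → ℝ) s = f.1 s.1 :=
  rfl

theorem norm_restr_le (n : ℕ) (f : PotentialTest PotentialModel.global) : ‖restr n f‖ ≤ 1 := by
  apply lp.norm_le_of_forall_sum_le toReal_two_pos zero_le_one
  intro A
  rw [Real.one_rpow]
  exact restr_sum_le n f A

/-- the map `ℓ² → Amb`, `x ↦ (f ↦ ⟪f, x⟫)` as a function -/
noncomputable def PhiFun (n : ℕ) (x : Hn n) : Amb :=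
  ⟨fun f => inner ℝ (restr n f) x, memℓp_infty ⟨‖x‖, by
    rintro _ ⟨f, rfl⟩
    show ‖inner ℝ (restr n f) x‖ ≤ ‖x‖
    rw [Real.norm_eq_abs]
    calc |inner ℝ (restr n f) x| ≤ ‖restr n f‖ * ‖x‖ := abs_real_inner_le_norm _ _
      _ ≤ 1 * ‖x‖ := mul_le_mul_of_nonneg_right (norm_restr_le n f) (norm_nonneg _)
      _ = ‖x‖ := one_mul _⟩⟩

theorem PhiFun_apply (n : ℕ) (x : Hn n) (f : PotentialTest PotentialModel.global) :
    (PhiFun n x : PotentialTest PotentialModel.global → ℝ) f = inner ℝ (restr n f) x := rfl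

theorem norm_PhiFun_le (n : ℕ) (x : Hn n) : ‖PhiFun n x‖ ≤ ‖x‖ := by
  apply norm_le_of_forall_abs_le (norm_nonneg _)
  intro f
  rw [PhiFun_apply]
  calc |inner ℝ (restr n f) x| ≤ ‖restr n f‖ * ‖x‖ := abs_real_inner_le_norm _ _
    _ ≤ 1 * ‖x‖ := mul_le_mul_of_nonneg_right (norm_restr_le n f) (norm_nonneg _)
    _ = ‖x‖ := one_mul _

/-- the map `ℓ² → Amb`, `x ↦ (f ↦ ⟪f, x⟫)` as a continuous linear map -/
noncomputable def Phi (n : ℕ) : Hn n →L[ℝ] Amb :=
  LinearMap.mkContinuous
    { toFun := PhiFun n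
      map_add' := fun x y => by
        apply lp.ext; funext f
        simp [PhiFun_apply, inner_add_right]
      map_smul' := fun c x => by
        apply lp.ext; funext f
        simp [PhiFun_apply, inner_smul_right] }
    1 (fun x => by
      show ‖PhiFun n x‖ ≤ 1 * ‖x‖
      rw [one_mul]; exact norm_PhiFun_le n x)

theorem Phi_apply (n : ℕ) (x : Hn n) (f : PotentialTest PotentialModel.global) :
    (Phi n x : PotentialTest PotentialModel.global → ℝ) f = inner ℝ (restr n f) x := rfl

theorem norm_Phi_le (n : ℕ) (x : Hn n) : ‖Phi n x‖ ≤ ‖x‖ := norm_PhiFun_le n x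

/-! ### potentials as finite sums, Cauchy–Schwarz along a root path -/

theorem pathPotential_eq_sum (n : ℕ) (g : List ℕ → ℝ) (hg : ∀ u : List ℕ, n < u.length → g u = 0)
    (s : List ℕ) :
    ∃ A : Finset (List ℕ), A.card ≤ n + 1 ∧ A.card ≤ s.length + 1 ∧
      (∀ u ∈ A, u.length ≤ s.length) ∧ pathPotential g s = ∑ u ∈ A, g u := by
  induction s with
  | nil => exact ⟨{[]}, by simp, by simp, by simp, by simp [pathPotential]⟩
  | cons a v ih =>
    obtain ⟨A, hA1, hA2, hlen, hsum⟩ := ih
    by_cases h : n < (a :: v).length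
    · refine ⟨A, hA1, ?_, fun u hu => ?_, ?_⟩
      · simp only [List.length_cons]; omega
      · exact le_trans (hlen u hu) (by simp)
      · simp [pathPotential, hsum, hg _ h]
    · have hle : (a :: v).length ≤ n := not_lt.mp h
      have hnot : (a :: v) ∉ A := fun hmem => by
        have := hlen _ hmem
        simp at this
      simp only [List.length_cons] at hle
      refine ⟨insert (a :: v) A, ?_, ?_, ?_, ?_⟩
      · rw [Finset.card_insert_of_notMem hnot]; omega
      · rw [Finset.card_insert_of_notMem hnot]; simp only [List.length_cons]; omega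
      · intro u hu
        rcases Finset.mem_insert.mp hu with rfl | hu
        · exact le_rfl
        · exact le_trans (hlen u hu) (by simp)
      · rw [Finset.sum_insert hnot, pathPotential, hsum]; ring

theorem pathPotential_sq_le (n : ℕ) (g : List ℕ → ℝ) (hg : ∀ u : List ℕ, n < u.length → g u = 0)
    {B : ℝ} (hB : ∀ A : Finset (List ℕ), ∑ u ∈ A, g u ^ 2 ≤ B) (s : List ℕ) :
    pathPotential g s ^ 2 ≤ (n + 1) * B := by
  obtain ⟨A, hA1, -, -, hsum⟩ := pathPotential_eq_sum n g hg s
  rw [hsum]
  have h0 : (0 : ℝ) ≤ ∑ u ∈ A, g u ^ 2 := Finset.sum_nonneg (fun u _ => sq_nonneg _)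
  calc (∑ u ∈ A, g u) ^ 2 ≤ (A.card : ℝ) * ∑ u ∈ A, g u ^ 2 := sq_sum_le_card_mul_sum_sq
    _ ≤ ((n : ℝ) + 1) * ∑ u ∈ A, g u ^ 2 := by
        apply mul_le_mul_of_nonneg_right _ h0
        exact_mod_cast hA1
    _ ≤ ((n : ℝ) + 1) * B := by
        apply mul_le_mul_of_nonneg_left (hB A)
        positivity

/-- extension by zero of an `ℓ²` vector on depth `≤ n` to all vertices -/
noncomputable def extFun (n : ℕ) (w : Hn n) : List ℕ → ℝ :=
  fun s => if h : s.length ≤ n then w ⟨s, h⟩ else 0

theorem extFun_sum_sq_le (n : ℕ) (w : Hn n) (A : Finset (List ℕ)) :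
    ∑ u ∈ A, extFun n w u ^ 2 ≤ ‖w‖ ^ 2 := by
  classical
  have h1 : ∑ u ∈ A, extFun n w u ^ 2 = ∑ u ∈ A.filter (fun s => s.length ≤ n), extFun n w u ^ 2 := by
    rw [Finset.sum_filter]
    apply Finset.sum_congr rfl
    intro u _
    by_cases h : u.length ≤ n
    · simp [h]
    · simp [extFun, h]
  have h2 : ∑ u ∈ A.filter (fun s => s.length ≤ n), extFun n w u ^ 2
      = ∑ i ∈ A.subtype (fun s => s.length ≤ n), (w i) ^ 2 := by
    rw [← Finset.sum_subtype_eq_sum_filter]
    apply Finset.sum_congr rfl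
    intro i _
    simp [extFun, i.2]
  have h3 := lp.sum_rpow_le_norm_rpow toReal_two_pos w (A.subtype (fun s => s.length ≤ n))
  simp only [rpow_toReal_two] at h3
  rw [ENNReal.toReal_ofNat, Real.rpow_two] at h3
  rw [h1, h2]
  exact h3

theorem isTest_extFun (n : ℕ) (w : Hn n) (hw : ((n : ℝ) + 1) * ‖w‖ ^ 2 ≤ 1) :
    IsTest PotentialModel.global (extFun n w) := by
  have hw1 : ‖w‖ ^ 2 ≤ 1 := by
    have h0 : (0 : ℝ) ≤ (n : ℝ) * ‖w‖ ^ 2 := by positivity
    nlinarith
  refine ⟨fun s => ?_, fun A => le_trans (extFun_sum_sq_le n w A) hw1⟩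
  have h := pathPotential_sq_le n (extFun n w)
    (fun u hu => by simp [extFun, not_le.mpr hu]) (extFun_sum_sq_le n w) s
  have h2 : pathPotential (extFun n w) s ^ 2 ≤ 1 := le_trans h hw
  exact abs_le_one_iff_mul_self_le_one.mpr (by nlinarith)

theorem restr_extFun (n : ℕ) (w : Hn n) (hw : IsTest PotentialModel.global (extFun n w)) :
    restr n (mkTest (extFun n w) hw) = w := by
  apply lp.ext; funext i
  rw [restr_apply, mkTest_val]
  simp [extFun, i.2]

/-- the lower bound `‖x‖₂ ≤ √(n+1) ‖Φ x‖` -/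
theorem norm_le_sqrt_mul_norm_Phi (n : ℕ) (x : Hn n) :
    ‖x‖ ≤ Real.sqrt (n + 1) * ‖Phi n x‖ := by
  by_cases hx : x = 0
  · subst hx; simp
  have hxpos : 0 < ‖x‖ := norm_pos_iff.mpr hx
  have hsq : 0 < Real.sqrt ((n : ℝ) + 1) := Real.sqrt_pos.mpr (by positivity)
  set c : ℝ := (‖x‖ * Real.sqrt ((n : ℝ) + 1))⁻¹ with hc
  have hcpos : 0 < c := by rw [hc]; positivity
  have hnw : ‖c • x‖ = c * ‖x‖ := by rw [norm_smul, Real.norm_eq_abs, abs_of_pos hcpos]
  have hss : Real.sqrt ((n : ℝ) + 1) ^ 2 = (n : ℝ) + 1 := Real.sq_sqrt (by positivity)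
  have hw : ((n : ℝ) + 1) * ‖c • x‖ ^ 2 ≤ 1 := by
    rw [hnw, hc]
    have : ((n : ℝ) + 1) * ((‖x‖ * Real.sqrt ((n : ℝ) + 1))⁻¹ * ‖x‖) ^ 2 = 1 := by
      field_simp
      rw [hss]
    exact this.le
  have ht := isTest_extFun n (c • x) hw
  have h1 : (Phi n x : PotentialTest PotentialModel.global → ℝ) (mkTest (extFun n (c • x)) ht)
      = c * ‖x‖ ^ 2 := by
    rw [Phi_apply, restr_extFun, inner_smul_left, real_inner_self_eq_norm_sq]
    simp
  have h2 := apply_le_norm (Phi n x) (mkTest (extFun n (c • x)) ht)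
  rw [h1] at h2
  have h3 : c * ‖x‖ ^ 2 = ‖x‖ / Real.sqrt ((n : ℝ) + 1) := by
    rw [hc]; field_simp
  rw [h3, div_le_iff₀ hsq] at h2
  linarith

/-! ### the range of `Phi` is the block -/

theorem Phi_single (n : ℕ) (s : {s : List ℕ // s.length ≤ n}) :
    Phi n (lp.single 2 s (1 : ℝ)) = cv s.1 := by
  classical
  apply lp.ext; funext f
  rw [Phi_apply, lp.inner_eq_tsum, cv_apply, tsum_eq_single s]
  · simp [lp.single_apply]
  · intro b hb
    simp [lp.single_apply, hb]

theorem Phi_mem_blk (n : ℕ) (x : Hn n) : Phi n x ∈ blk n := by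
  classical
  have hs := lp.hasSum_single (p := 2) (by simp) x
  have hs2 := (Phi n).hasSum hs
  refine (blk_isClosed n).mem_of_tendsto hs2 (Eventually.of_forall fun A => ?_)
  apply Submodule.sum_mem
  intro i _
  have h1 : lp.single 2 i (x i) = (x i) • (lp.single 2 i (1 : ℝ) : Hn n) := by
    rw [← lp.single_smul]; simp
  rw [h1, map_smul, Phi_single]
  exact Submodule.smul_mem _ _ (cv_mem_blk i.2)

theorem Phi_antilipschitz (n : ℕ) :
    AntilipschitzWith (Real.toNNReal (Real.sqrt (n + 1))) (Phi n) := by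
  apply ContinuousLinearMap.antilipschitz_of_bound
  intro x
  rw [Real.coe_toNNReal _ (Real.sqrt_nonneg _)]
  exact norm_le_sqrt_mul_norm_Phi n x

theorem blk_le_range (n : ℕ) : blk n ≤ LinearMap.range (Phi n : Hn n →ₗ[ℝ] Amb) := by
  classical
  have hcl : IsClosed (Set.range (Phi n)) :=
    (Phi_antilipschitz n).isClosed_range (Phi n).uniformContinuous
  apply Submodule.topologicalClosure_minimal
  · apply Submodule.span_le.mpr
    rintro _ ⟨s, hs, rfl⟩
    exact ⟨lp.single 2 ⟨s, hs⟩ 1, Phi_single n ⟨s, hs⟩⟩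
  · have hset : ((LinearMap.range (Phi n : Hn n →ₗ[ℝ] Amb) : Submodule ℝ Amb) : Set Amb)
        = Set.range (Phi n) := by
      ext y; simp [LinearMap.mem_range]
    rw [hset]; exact hcl

/-- `Phi` with codomain restricted to the block -/
noncomputable def PhiR (n : ℕ) : Hn n →L[ℝ] Blk n :=
  (Phi n).codRestrict (blk n) (Phi_mem_blk n)

@[simp] theorem PhiR_coe (n : ℕ) (x : Hn n) : ((PhiR n x : Blk n) : Amb) = Phi n x := rfl

/-- the Hilbert equivalence of the block -/
noncomputable def blkEquiv (n : ℕ) : Hn n ≃L[ℝ] Blk n :=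
  ContinuousLinearEquiv.ofBijective (PhiR n)
    (by
      rw [LinearMap.ker_eq_bot']
      intro x hx
      have h0 : Phi n x = 0 := by
        have := congrArg (fun y : Blk n => (y : Amb)) hx
        simpa using this
      have h1 := norm_le_sqrt_mul_norm_Phi n x
      rw [h0, norm_zero, mul_zero] at h1
      exact norm_le_zero_iff.mp h1)
    (by
      rw [LinearMap.range_eq_top]
      intro y
      obtain ⟨x, hx⟩ := blk_le_range n y.2
      exact ⟨x, Subtype.ext hx⟩)

@[simp] theorem blkEquiv_coe (n : ℕ) (x : Hn n) : ((blkEquiv n x : Blk n) : Amb) = Phi n x := rfl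

theorem blkEquiv_apply (n : ℕ) (x : Hn n) (f : PotentialTest PotentialModel.global) :
    ((blkEquiv n x : Blk n) : PotentialTest PotentialModel.global → ℝ) f
      = inner ℝ (restr n f) x := rfl

theorem norm_blkEquiv_le (n : ℕ) (x : Hn n) : ‖blkEquiv n x‖ ≤ ‖x‖ := norm_Phi_le n x

theorem norm_le_sqrt_mul_norm_blkEquiv (n : ℕ) (x : Hn n) :
    ‖x‖ ≤ Real.sqrt (n + 1) * ‖blkEquiv n x‖ := norm_le_sqrt_mul_norm_Phi n x

/-! ### separability -/

theorem blk_isSeparable (n : ℕ) : TopologicalSpace.IsSeparable (blk n : Set Amb) := by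
  have hc : (cv '' {s : List ℕ | s.length ≤ n}).Countable := (Set.to_countable _).image _
  have h3 := (hc.isSeparable.span (R := ℝ)).closure
  simpa [blk, Submodule.topologicalClosure_coe] using h3

instance (n : ℕ) : TopologicalSpace.SeparableSpace (Blk n) :=
  (blk_isSeparable n).separableSpace

end Crest.Agent.Helper27
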