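import Mathlib
import Crest.Prelude.Def_TreePotentials
import Crest.Agent.Helper30.AUCBasic
import Crest.Agent.Helper27.Block

/-!
# Trees inside the blocks (helper27, package G1c of row 125)

Unit vectors `e n s`, root-path vectors `z n s` of the block `Blk n`, the sibling sign-sum bound,
weak nullness of siblings, and the tree data required by `Helper30.no_auc_of_trees` (K5).
-/

set_option autoImplicit false

open Crest.AnalysisR Crest.AnalysisR.TreePotential
open Filter Topology
open Crest.Agent.Helper30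

namespace Crest.Agent.Helper27

/-! ### indicator tests -/

/-- indicator function of the vertex `s` -/
def indFun (s : List ℕ) : List ℕ → ℝ := fun u => if u = s then 1 else 0

theorem pathPotential_indFun (s v : List ℕ) :
    pathPotential (indFun s) v = if s <:+ v then 1 else 0 := by
  induction v with
  | nil =>
    simp only [pathPotential, indFun, List.suffix_nil]
    by_cases h : s = []
    · simp [h]
    · simp [h, Ne.symm h]
  | cons a w ih =>
    rw [pathPotential, ih]
    by_cases h1 : s = a :: w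
    · subst h1
      have h2 : ¬ (a :: w) <:+ w := fun h => by
        have := h.length_le
        simp at this
      simp [indFun, h2]
    · have h2 : (s <:+ a :: w) ↔ s <:+ w := by
        rw [List.suffix_cons_iff]; simp [h1]
      have h3 : indFun s (a :: w) = 0 := by simp [indFun, Ne.symm h1]
      simp [h2, h3]

theorem isTest_indFun (s : List ℕ) : IsTest PotentialModel.global (indFun s) := by
  refine ⟨fun v => ?_, fun A => ?_⟩
  · rw [pathPotential_indFun]
    split_ifs <;> norm_num
  · have h : ∀ u, indFun s u ^ 2 = if u = s then 1 else 0 := by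
      intro u
      by_cases hu : u = s <;> simp [indFun, hu]
    simp only [h, Finset.sum_ite_eq']
    split_ifs <;> norm_num

/-- the indicator test of the vertex `s` -/
def indTest (s : List ℕ) : PotentialTest PotentialModel.global := mkTest (indFun s) (isTest_indFun s)

@[simp] theorem indTest_val (s u : List ℕ) : (indTest s).1 u = if u = s then 1 else 0 := rfl

theorem one_le_norm_cv (s : List ℕ) : 1 ≤ ‖cv s‖ := by
  have h := apply_le_norm (cv s) (indTest s)
  simpa using h

theorem abs_test_le_one (f : PotentialTest PotentialModel.global) (s : List ℕ) : |f.1 s| ≤ 1 := by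
  have h := test_sum_sq_le f {s}
  simp only [Finset.sum_singleton] at h
  exact abs_le_one_iff_mul_self_le_one.mpr (by nlinarith)

theorem norm_cv_le_one (s : List ℕ) : ‖cv s‖ ≤ 1 :=
  norm_le_of_forall_abs_le zero_le_one (fun f => by simpa using abs_test_le_one f s)

theorem norm_cv (s : List ℕ) : ‖cv s‖ = 1 := le_antisymm (norm_cv_le_one s) (one_le_norm_cv s)

/-! ### root-path vectors in the ambient space -/

/-- the root-path vector of `s`: the function `f ↦ pathPotential f s` on tests -/
noncomputable def pot (s : List ℕ) : Amb :=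
  ⟨fun f => pathPotential f.1 s, memℓp_infty ⟨1, by
    rintro _ ⟨f, rfl⟩
    show ‖pathPotential f.1 s‖ ≤ 1
    rw [Real.norm_eq_abs]
    exact f.2.1 s⟩⟩

@[simp] theorem pot_apply (s : List ℕ) (f : PotentialTest PotentialModel.global) :
    (pot s : PotentialTest PotentialModel.global → ℝ) f = pathPotential f.1 s := rfl

theorem norm_pot_le (s : List ℕ) : ‖pot s‖ ≤ 1 :=
  norm_le_of_forall_abs_le zero_le_one (fun f => f.2.1 s)

theorem pot_nil : pot [] = cv [] := by
  apply lp.ext; funext f
  simp [pathPotential]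

theorem pot_cons (a : ℕ) (v : List ℕ) : pot (a :: v) = pot v + cv (a :: v) := by
  apply lp.ext; funext f
  simp [pathPotential]

theorem pot_mem_blk {n : ℕ} {s : List ℕ} (hs : s.length ≤ n) : pot s ∈ blk n := by
  induction s with
  | nil => rw [pot_nil]; exact cv_mem_blk hs
  | cons a v ih =>
    rw [pot_cons]
    have hv : v.length ≤ n := by simp only [List.length_cons] at hs; omega
    exact Submodule.add_mem _ (ih hv) (cv_mem_blk hs)

/-! ### sign sums of siblings -/

theorem sum_smul_cv_apply (s : List ℕ) (A : Finset ℕ) (σ : ℕ → ℝ)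
    (f : PotentialTest PotentialModel.global) :
    ((∑ k ∈ A, σ k • cv (k :: s) : Amb) : PotentialTest PotentialModel.global → ℝ) f
      = ∑ k ∈ A, σ k * f.1 (k :: s) := by
  have h := map_sum (evalCLM f) (fun k => σ k • cv (k :: s)) A
  simp only [evalCLM_apply] at h
  rw [h]
  apply Finset.sum_congr rfl
  intro k _
  simp

theorem norm_sign_sum_sq_le (s : List ℕ) (A : Finset ℕ) (σ : ℕ → ℝ)
    (hσ : ∀ k, σ k = 1 ∨ σ k = -1) :
    ‖∑ k ∈ A, σ k • cv (k :: s)‖ ^ 2 ≤ 1 * (A.card : ℝ) := by
  have hb : ‖∑ k ∈ A, σ k • cv (k :: s)‖ ≤ Real.sqrt A.card := by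
    apply norm_le_of_forall_abs_le (Real.sqrt_nonneg _)
    intro f
    rw [sum_smul_cv_apply]
    apply Real.abs_le_sqrt
    have h1 : ∑ k ∈ A, σ k ^ 2 = (A.card : ℝ) := by
      have : ∀ k ∈ A, σ k ^ 2 = 1 := by
        intro k _
        rcases hσ k with h | h <;> rw [h] <;> norm_num
      rw [Finset.sum_congr rfl this]; simp
    have h2 : ∑ k ∈ A, f.1 (k :: s) ^ 2 ≤ 1 := by
      have h := test_sum_sq_le f
        (A.map ⟨fun k => k :: s, fun a b hab => by simpa using hab⟩)
      rw [Finset.sum_map] at h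
      exact h
    have h3 : (0 : ℝ) ≤ (A.card : ℝ) := by positivity
    calc (∑ k ∈ A, σ k * f.1 (k :: s)) ^ 2
        ≤ (∑ k ∈ A, σ k ^ 2) * ∑ k ∈ A, f.1 (k :: s) ^ 2 := Finset.sum_mul_sq_le_sq_mul_sq _ _ _
      _ ≤ (A.card : ℝ) * 1 := by rw [h1]; exact mul_le_mul_of_nonneg_left h2 h3
      _ = (A.card : ℝ) := mul_one _
  have h4 : ‖∑ k ∈ A, σ k • cv (k :: s)‖ ^ 2 ≤ Real.sqrt A.card ^ 2 :=
    pow_le_pow_left₀ (norm_nonneg _) hb 2
  rw [Real.sq_sqrt (by positivity)] at h4
  rw [one_mul]; exact h4

/-! ### unit vectors and root-path vectors of the block -/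

/-- the unit vector of the vertex `s` in the block `Blk n` (zero if `s` is too deep) -/
noncomputable def e (n : ℕ) (s : List ℕ) : Blk n :=
  if h : s.length ≤ n then ⟨cv s, cv_mem_blk h⟩ else 0

/-- the root-path vector of the vertex `s` in the block `Blk n` (zero if `s` is too deep) -/
noncomputable def z (n : ℕ) (s : List ℕ) : Blk n :=
  if h : s.length ≤ n then ⟨pot s, pot_mem_blk h⟩ else 0

theorem e_coe {n : ℕ} {s : List ℕ} (h : s.length ≤ n) : ((e n s : Blk n) : Amb) = cv s := by
  simp [e, h]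

theorem z_coe {n : ℕ} {s : List ℕ} (h : s.length ≤ n) : ((z n s : Blk n) : Amb) = pot s := by
  simp [z, h]

theorem e_apply {n : ℕ} {s : List ℕ} (h : s.length ≤ n) (f : PotentialTest PotentialModel.global) :
    ((e n s : Blk n) : PotentialTest PotentialModel.global → ℝ) f = f.1 s := by
  rw [e_coe h]; rfl

theorem z_apply {n : ℕ} {s : List ℕ} (h : s.length ≤ n) (f : PotentialTest PotentialModel.global) :
    ((z n s : Blk n) : PotentialTest PotentialModel.global → ℝ) f = pathPotential f.1 s := by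
  rw [z_coe h]; rfl

theorem norm_e {n : ℕ} {s : List ℕ} (h : s.length ≤ n) : ‖e n s‖ = 1 := by
  rw [Submodule.coe_norm, e_coe h, norm_cv]

theorem norm_z_le (n : ℕ) (s : List ℕ) : ‖z n s‖ ≤ 1 := by
  by_cases h : s.length ≤ n
  · rw [Submodule.coe_norm, z_coe h]; exact norm_pot_le s
  · simp [z, h]

theorem z_nil (n : ℕ) : z n [] = e n [] := by
  apply Subtype.ext
  rw [z_coe (by simp), e_coe (by simp), pot_nil]

theorem z_cons_sub {n : ℕ} {k : ℕ} {s : List ℕ} (h : (k :: s).length ≤ n) :
    z n (k :: s) - z n s = e n (k :: s) := by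
  have hs : s.length ≤ n := by simp only [List.length_cons] at h; omega
  apply Subtype.ext
  rw [Submodule.coe_sub, z_coe h, z_coe hs, e_coe h, pot_cons]
  abel

theorem norm_sign_sum_e_sq_le (n : ℕ) (s : List ℕ) (hs : s.length < n) (A : Finset ℕ)
    (σ : ℕ → ℝ) (hσ : ∀ k, σ k = 1 ∨ σ k = -1) :
    ‖∑ k ∈ A, σ k • e n (k :: s)‖ ^ 2 ≤ 1 * (A.card : ℝ) := by
  have h1 : ((∑ k ∈ A, σ k • e n (k :: s) : Blk n) : Amb) = ∑ k ∈ A, σ k • cv (k :: s) := by
    rw [Submodule.coe_sum]
    apply Finset.sum_congr rfl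
    intro k _
    rw [Submodule.coe_smul, e_coe (by simp only [List.length_cons]; omega)]
  rw [Submodule.coe_norm, h1]
  exact norm_sign_sum_sq_le s A σ hσ

/-- siblings are weakly null in the block -/
theorem weaklyNull_e (n : ℕ) (s : List ℕ) (hs : s.length < n) :
    WeaklyNull (fun k => e n (k :: s)) :=
  weaklyNull_of_sign_sums (C := 1) (fun A σ hσ => norm_sign_sum_e_sq_le n s hs A σ hσ)

/-- the tree data of `Helper30.no_auc_of_trees` (K5, with `κ = 1`) inside the block `Blk n`:
`T j` is the set of root-path vectors of the vertices of depth `j`. -/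
theorem blk_tree (n : ℕ) :
    ∃ T : ℕ → Set (Blk n), (∃ x ∈ T 0, (1 : ℝ) ≤ ‖x‖) ∧ (∀ j ≤ n, ∀ x ∈ T j, ‖x‖ ≤ 1) ∧
      ∀ j < n, ∀ x ∈ T j, ∃ u : ℕ → Blk n, (∀ k, u k ∈ T (j + 1)) ∧
        WeaklyNull (fun k => u k - x) ∧ ∀ k, (1 : ℝ) ≤ ‖u k - x‖ := by
  refine ⟨fun j => {x | ∃ s : List ℕ, s.length = j ∧ x = z n s}, ?_, ?_, ?_⟩
  · refine ⟨z n [], ⟨[], rfl, rfl⟩, ?_⟩
    rw [z_nil, norm_e (by simp)]
  · rintro j _ x ⟨s, _, rfl⟩
    exact norm_z_le n s
  · rintro j hj x ⟨s, hs, rfl⟩
    have hsn : s.length < n := by omega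
    have hk : ∀ k : ℕ, (k :: s).length ≤ n := fun k => by simp only [List.length_cons]; omega
    refine ⟨fun k => z n (k :: s), fun k => ⟨k :: s, by simp [hs], rfl⟩, ?_, fun k => ?_⟩
    · have : (fun k => z n (k :: s) - z n s) = fun k => e n (k :: s) := by
        funext k; exact z_cons_sub (hk k)
      rw [this]
      exact weaklyNull_e n s hsn
    · rw [z_cons_sub (hk k), norm_e (hk k)]

end Crest.Agent.Helper27
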